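import Vale.Agent.P096.Fin

universe u

namespace Vale.Agent.Results.P096.UniformLocal

open Vale.Agent.P096

/-- The strong form of the conjecture (question Q1): `δ` depends on `ε` only. -/
def UniformForm : Prop :=
  ∀ ε : ℝ, 0 < ε → ∃ δ : ℝ, 0 < δ ∧
    ∀ (H : Type u) [NormedAddCommGroup H] [InnerProductSpace ℂ H] [CompleteSpace H]
      (M N : VonNeumannAlgebra H), kk M N < δ → NearConj ε M N

/-- The weaker form of the conjecture in which `δ` may depend on `ε`, `H` and `M`. -/
def LocalForm : Prop :=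
  ∀ ε : ℝ, 0 < ε →
    ∀ (H : Type u) [NormedAddCommGroup H] [InnerProductSpace ℂ H] [CompleteSpace H]
      (M : VonNeumannAlgebra H), ∃ δ : ℝ, 0 < δ ∧
        ∀ N : VonNeumannAlgebra H, kk M N < δ → NearConj ε M N

/-- The strong Kadison-Kastler conjecture with `δ` depending only on `ε` (question Q1) is
equivalent to its weaker form in which `δ` may depend on the von Neumann algebra `M`
(and on the Hilbert space). -/
theorem result : UniformForm.{u} ↔ LocalForm.{u} := by
  have h := uniform_iff_local.{u} (fun _ _ _ _ _ => True) (fun _ _ _ _ _ _ => trivial)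
  constructor
  · intro hU ε hε H _ _ _ M
    obtain ⟨δ, hδ, hd⟩ := hU ε hε
    exact ⟨δ, hδ, fun N hN => hd H M N hN⟩
  · intro hL ε hε
    obtain ⟨δ, hδ, hd⟩ := h.2 (fun ε hε H _ _ _ M _ => hL ε hε H M) ε hε
    exact ⟨δ, hδ, fun H _ _ _ M N hN => hd H M N trivial hN⟩

end Vale.Agent.Results.P096.UniformLocal
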